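import Vale.Agent.P034.Core

/-!
# Covers built from disjoint cells
-/

namespace Vale.Agent.P034

open Finset

variable {X : Type*} [DecidableEq X]

/-- Abstract rounding theorem: `C` is a family of cells with weights `W`; every member of `F`
contains a pairwise disjoint heavy family of cells.  Then `F` has a cheap integral cover at `y`. -/
theorem cover_of_cells (C : Finset (Finset X)) (W : Finset X → ℝ) (hW : ∀ R, 0 ≤ W R)
    (y : ℝ) (hy : 0 ≤ y) (F : Finset (Finset X))
    (hF : ∀ H ∈ F, ∃ J : Finset (Finset X), J ⊆ C ∧ (∀ R ∈ J, R ⊆ H) ∧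
        (J : Set (Finset X)).PairwiseDisjoint id ∧
        ∑ R ∈ C, W R * y ^ R.card < (1/9) * ∑ R ∈ J, W R) :
    ∃ G : Finset (Finset X), (∀ H ∈ F, ∃ S ∈ G, S ⊆ H) ∧ ∑ S ∈ G, y ^ S.card ≤ 1/2 := by
  classical
  set x : Finset X → ℝ := fun R => y ^ R.card with hx
  have hx0 : ∀ R, 0 ≤ x R := fun R => pow_nonneg hy _
  set TT := (hitFam C x W (1/9)).filter
    (fun T : Finset (Finset X) => (T : Set (Finset X)).PairwiseDisjoint id) with hTT
  refine ⟨TT.image (fun T : Finset (Finset X) => T.biUnion id), ?_, ?_⟩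
  · intro H hH
    obtain ⟨J, hJC, hJH, hJd, hheavy⟩ := hF H hH
    obtain ⟨T, hT, hTJ⟩ := hitFam_hits C x W hx0 hW (1/9) (by norm_num) J hJC hheavy
    refine ⟨T.biUnion id, ?_, ?_⟩
    · apply mem_image_of_mem
      rw [hTT, mem_filter]
      refine ⟨hT, hJd.subset ?_⟩
      exact_mod_cast hTJ
    · intro a ha
      rw [mem_biUnion] at ha
      obtain ⟨R, hR, haR⟩ := ha
      exact hJH R (hTJ hR) haR
  · refine le_trans (sum_image_le_of_nonneg (fun u _ => pow_nonneg hy _)) ?_
    refine le_trans ?_ (hitFam_cost C x W hx0)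
    have : ∑ T ∈ TT, y ^ (T.biUnion id).card = ∑ T ∈ TT, ∏ R ∈ T, x R := by
      apply sum_congr rfl
      intro T hT
      rw [hTT, mem_filter] at hT
      rw [card_biUnion hT.2, hx, prod_pow_eq_pow_sum]
      rfl
    rw [this]
    apply sum_le_sum_of_subset_of_nonneg (filter_subset _ _)
    intro T _ _
    exact prod_nonneg (fun R _ => hx0 R)

end Vale.Agent.P034
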