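import Mathlib

/-!
# Core threshold lemma for P034

Weighted, non-uniform version of the singleton case: indices `i ∈ I` carry weights `w i ≥ 0`
and formal probabilities `x i ≥ 0`.  We build a family of subsets of `I` hitting every `J` of large
weight, whose total product cost is at most `1/2`.
-/

namespace Vale.Agent.P034

open Finset

variable {ι : Type*} [DecidableEq ι]

/-- Layer-cake style majorization, proved by induction on the size of `J`. -/
lemma major (I : Finset ι) (x w : ι → ℝ) (hx : ∀ i, 0 ≤ x i) (c : ℝ) (hc : 0 ≤ c) :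
    ∀ (m : ℕ) (J : Finset ι) (t : ℝ), J.card ≤ m → (∀ j ∈ J, t < w j) →
      (∀ j ∈ J, c * ((J.filter (fun j' => w j ≤ w j')).card : ℝ)
          ≤ ∑ i ∈ I.filter (fun i => w j ≤ w i), x i) →
      c * ∑ j ∈ J, (w j - t) ≤ ∑ i ∈ I.filter (fun i => t < w i), (w i - t) * x i := by
  intro m
  induction m with
  | zero =>
    intro J t hJ _ _
    have : J = ∅ := by simpa using hJ
    subst this
    simp only [sum_empty, mul_zero]
    apply sum_nonneg
    intro i hi
    have := (mem_filter.mp hi).2
    exact mul_nonneg (by linarith) (hx i)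
  | succ m ih =>
    intro J t hJ ht hyp
    rcases J.eq_empty_or_nonempty with rfl | hne
    · simp only [sum_empty, mul_zero]
      apply sum_nonneg
      intro i hi
      have := (mem_filter.mp hi).2
      exact mul_nonneg (by linarith) (hx i)
    obtain ⟨j0, hj0, hmin⟩ := J.exists_min_image w hne
    set w0 := w j0 with hw0
    set J' := J.filter (fun j => w0 < w j) with hJ'
    have hJ'sub : J' ⊆ J := filter_subset _ _
    have hj0' : j0 ∉ J' := by simp [hJ', hw0]
    have hcard : J'.card ≤ m := by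
      have : J'.card < J.card := card_lt_card ⟨hJ'sub, fun h => hj0' (h hj0)⟩
      omega
    have ih' := ih J' w0 hcard (fun j hj => (mem_filter.mp hj).2) (by
      intro j hj
      refine le_trans ?_ (hyp j (hJ'sub hj))
      apply mul_le_mul_of_nonneg_left _ hc
      exact_mod_cast card_le_card (filter_subset_filter _ hJ'sub))
    -- left side
    have hL : ∑ j ∈ J, (w j - t) = ∑ j ∈ J', (w j - w0) + (J.card : ℝ) * (w0 - t) := by
      have h1 : ∑ j ∈ J, (w j - t) = ∑ j ∈ J, (w j - w0) + (J.card : ℝ) * (w0 - t) := by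
        rw [← nsmul_eq_mul, ← sum_const, ← sum_add_distrib]
        apply sum_congr rfl
        intro j _
        ring
      rw [h1]
      congr 1
      rw [hJ', sum_filter]
      apply sum_congr rfl
      intro j hj
      split_ifs with h
      · rfl
      · have := hmin j hj
        have : w j = w0 := le_antisymm (not_lt.mp h) this
        linarith
    have hJall : J.filter (fun j' => w j0 ≤ w j') = J := by
      apply filter_true_of_mem
      intro j hj
      exact hmin j hj
    have h0 := hyp j0 hj0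
    rw [hJall] at h0
    -- right side
    have hR : ∑ i ∈ I.filter (fun i => w0 < w i), (w i - w0) * x i
        + (w0 - t) * ∑ i ∈ I.filter (fun i => w0 ≤ w i), x i
        ≤ ∑ i ∈ I.filter (fun i => t < w i), (w i - t) * x i := by
      have ht0 : t < w0 := ht j0 hj0
      have e1 : ∑ i ∈ I.filter (fun i => w0 < w i), (w i - w0) * x i
          = ∑ i ∈ I.filter (fun i => w0 ≤ w i), (w i - w0) * x i := by
        rw [sum_filter, sum_filter]
        apply sum_congr rfl
        intro i _
        by_cases h1 : w0 < w i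
        · simp [h1, h1.le]
        · by_cases h2 : w0 ≤ w i
          · have : w i = w0 := le_antisymm (not_lt.mp h1) h2
            simp [this]
          · simp [h1, h2]
      rw [e1, mul_sum, ← sum_add_distrib]
      have e2 : ∑ i ∈ I.filter (fun i => w0 ≤ w i), ((w i - w0) * x i + (w0 - t) * x i)
          = ∑ i ∈ I.filter (fun i => w0 ≤ w i), (w i - t) * x i := by
        apply sum_congr rfl
        intro i _
        ring
      rw [e2]
      apply sum_le_sum_of_subset_of_nonneg
      · intro i hi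
        rw [mem_filter] at hi ⊢
        exact ⟨hi.1, lt_of_lt_of_le ht0 hi.2⟩
      · intro i hi _
        have := (mem_filter.mp hi).2
        exact mul_nonneg (by linarith) (hx i)
    have ht0 : t < w0 := ht j0 hj0
    calc c * ∑ j ∈ J, (w j - t)
        = c * ∑ j ∈ J', (w j - w0) + (w0 - t) * (c * (J.card : ℝ)) := by rw [hL]; ring
      _ ≤ ∑ i ∈ I.filter (fun i => w0 < w i), (w i - w0) * x i
          + (w0 - t) * ∑ i ∈ I.filter (fun i => w0 ≤ w i), x i := by
            apply add_le_add ih'
            apply mul_le_mul_of_nonneg_left h0 (by linarith)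
      _ ≤ _ := hR


/-- mass of the indices of weight at least `w i`. -/
noncomputable def massGe (I : Finset ι) (x w : ι → ℝ) (i : ι) : ℝ :=
  ∑ j ∈ I.filter (fun j => w i ≤ w j), x j

/-- the `r`-th layer: indices whose upper mass is at most `c * r`. -/
noncomputable def layer (I : Finset ι) (x w : ι → ℝ) (c : ℝ) (r : ℕ) : Finset ι :=
  I.filter (fun i => massGe I x w i ≤ c * r)

lemma layer_sum_le (I : Finset ι) (x w : ι → ℝ) (hx : ∀ i, 0 ≤ x i) (c : ℝ) (hc : 0 ≤ c) (r : ℕ) :
    ∑ i ∈ layer I x w c r, x i ≤ c * r := by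
  rcases (layer I x w c r).eq_empty_or_nonempty with h | hne
  · rw [h]; simp; positivity
  obtain ⟨i0, hi0, hmin⟩ := (layer I x w c r).exists_min_image w hne
  have h1 : massGe I x w i0 ≤ c * r := (mem_filter.mp hi0).2
  refine le_trans ?_ h1
  unfold massGe
  apply sum_le_sum_of_subset_of_nonneg
  · intro i hi
    rw [mem_filter]
    exact ⟨(mem_filter.mp hi).1, hmin i hi⟩
  · intro i _ _
    exact hx i

/-- If `J ⊆ I` is heavy then some layer `r ≥ 1` contains at least `r` elements of `J`. -/
lemma exists_layer (I : Finset ι) (x w : ι → ℝ) (hx : ∀ i, 0 ≤ x i) (hw : ∀ i, 0 ≤ w i)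
    (c : ℝ) (hc : 0 ≤ c) (J : Finset ι) (hJ : J ⊆ I)
    (hheavy : ∑ i ∈ I, w i * x i < c * ∑ j ∈ J, w j) :
    ∃ r : ℕ, 1 ≤ r ∧ r ≤ (J ∩ layer I x w c r).card := by
  by_contra hcon
  push Not at hcon
  set J' := J.filter (fun j => 0 < w j) with hJ'
  have key := major I x w hx c hc J'.card J' 0 le_rfl (fun j hj => (mem_filter.mp hj).2) (by
    intro j hj
    have hjJ : j ∈ J := (mem_filter.mp hj).1
    set ρ := (J.filter (fun j' => w j ≤ w j')).card with hρ
    have hρ1 : 1 ≤ ρ := by
      apply card_pos.mpr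
      exact ⟨j, by simp [hjJ]⟩
    have hlt := hcon ρ hρ1
    have hnot : ¬ massGe I x w j ≤ c * ρ := by
      intro hle
      have hsub : J.filter (fun j' => w j ≤ w j') ⊆ J ∩ layer I x w c ρ := by
        intro j' hj'
        rw [mem_filter] at hj'
        rw [mem_inter]
        refine ⟨hj'.1, ?_⟩
        unfold layer
        rw [mem_filter]
        refine ⟨hJ hj'.1, le_trans ?_ hle⟩
        unfold massGe
        apply sum_le_sum_of_subset_of_nonneg
        · intro i hi
          rw [mem_filter] at hi ⊢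
          exact ⟨hi.1, le_trans hj'.2 hi.2⟩
        · intro i _ _
          exact hx i
      have := card_le_card hsub
      omega
    have h2 : c * (ρ : ℝ) ≤ massGe I x w j := le_of_lt (not_le.mp hnot)
    refine le_trans ?_ h2
    apply mul_le_mul_of_nonneg_left _ hc
    exact_mod_cast card_le_card (filter_subset_filter _ (filter_subset _ _)))
  have e1 : ∑ j ∈ J', (w j - 0) = ∑ j ∈ J, w j := by
    rw [hJ', sum_filter]
    apply sum_congr rfl
    intro j _
    split_ifs with h
    · ring
    · exact le_antisymm (hw j) (not_lt.mp h)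
  have e2 : ∑ i ∈ I.filter (fun i => 0 < w i), (w i - 0) * x i ≤ ∑ i ∈ I, w i * x i := by
    simp only [sub_zero]
    apply sum_le_sum_of_subset_of_nonneg (filter_subset _ _)
    intro i _ _
    exact mul_nonneg (hw i) (hx i)
  rw [e1] at key
  linarith

/-- Elementary symmetric sums are controlled by the exponential generating function. -/
lemma esymm_le (A : Finset ι) (x : ι → ℝ) (hx : ∀ i, 0 ≤ x i) (θ : ℝ) (hθ : 0 < θ) (r : ℕ) :
    ∑ T ∈ A.powersetCard r, ∏ i ∈ T, x i ≤ (θ⁻¹) ^ r * Real.exp (θ * ∑ i ∈ A, x i) := by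
  have h1 : ∑ T ∈ A.powersetCard r, ∏ i ∈ T, (θ * x i) ≤ Real.exp (∑ i ∈ A, θ * x i) := by
    refine le_trans ?_ (Real.prod_one_add_le_exp_sum A (f := fun i => θ * x i)
      (fun i => mul_nonneg hθ.le (hx i)))
    rw [prod_one_add]
    apply sum_le_sum_of_subset_of_nonneg
    · intro T hT
      rw [mem_powerset]
      exact (mem_powersetCard.mp hT).1
    · intro T _ _
      exact prod_nonneg (fun i _ => mul_nonneg hθ.le (hx i))
  have h2 : ∑ T ∈ A.powersetCard r, ∏ i ∈ T, (θ * x i)
      = θ ^ r * ∑ T ∈ A.powersetCard r, ∏ i ∈ T, x i := by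
    rw [mul_sum]
    apply sum_congr rfl
    intro T hT
    rw [prod_mul_distrib, prod_const, (mem_powersetCard.mp hT).2]
  rw [h2, ← mul_sum] at h1
  have hpos : 0 < θ ^ r := pow_pos hθ r
  rw [inv_pow]
  rw [inv_mul_eq_div, le_div_iff₀ hpos]
  linarith

lemma geom_third (N : ℕ) : ∑ r ∈ Finset.range N, ((1:ℝ)/3) ^ (r + 1) ≤ 1 / 2 := by
  have : ∀ N : ℕ, ∑ r ∈ Finset.range N, ((1:ℝ)/3) ^ (r + 1) = 1 / 2 - (1 / 2) * (1 / 3) ^ N := by
    intro N
    induction N with
    | zero => simp
    | succ n ih => rw [sum_range_succ, ih]; ring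
  rw [this]
  have : (0:ℝ) ≤ (1 / 2) * (1 / 3) ^ N := by positivity
  linarith

/-- The hitting family: nonempty `T ⊆ I` contained in the layer indexed by their own size. -/
noncomputable def hitFam (I : Finset ι) (x w : ι → ℝ) (c : ℝ) : Finset (Finset ι) :=
  I.powerset.filter (fun T => 1 ≤ T.card ∧ T ⊆ layer I x w c T.card)

lemma hitFam_hits (I : Finset ι) (x w : ι → ℝ) (hx : ∀ i, 0 ≤ x i) (hw : ∀ i, 0 ≤ w i)
    (c : ℝ) (hc : 0 ≤ c) (J : Finset ι) (hJ : J ⊆ I)
    (hheavy : ∑ i ∈ I, w i * x i < c * ∑ j ∈ J, w j) :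
    ∃ T ∈ hitFam I x w c, T ⊆ J := by
  obtain ⟨r, hr1, hr⟩ := exists_layer I x w hx hw c hc J hJ hheavy
  obtain ⟨T, hT, hTc⟩ := exists_subset_card_eq hr
  refine ⟨T, ?_, fun i hi => (mem_inter.mp (hT hi)).1⟩
  unfold hitFam
  rw [mem_filter, mem_powerset]
  refine ⟨fun i hi => hJ (mem_inter.mp (hT hi)).1, by omega, ?_⟩
  rw [hTc]
  exact fun i hi => (mem_inter.mp (hT hi)).2

lemma hitFam_cost (I : Finset ι) (x w : ι → ℝ) (hx : ∀ i, 0 ≤ x i) :
    ∑ T ∈ hitFam I x w (1/9), ∏ i ∈ T, x i ≤ 1 / 2 := by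
  have hmaps : ∀ T ∈ hitFam I x w (1/9), T.card - 1 ∈ Finset.range I.card := by
    intro T hT
    unfold hitFam at hT
    rw [mem_filter, mem_powerset] at hT
    have := card_le_card hT.1
    rw [mem_range]
    omega
  rw [← sum_fiberwise_of_maps_to hmaps]
  refine le_trans ?_ (geom_third I.card)
  apply sum_le_sum
  intro r _
  have hsub : (hitFam I x w (1/9)).filter (fun T => T.card - 1 = r)
      ⊆ (layer I x w (1/9) (r+1)).powersetCard (r+1) := by
    intro T hT
    rw [mem_filter] at hT
    unfold hitFam at hT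
    rw [mem_filter] at hT
    have hc : T.card = r + 1 := by omega
    rw [mem_powersetCard]
    refine ⟨?_, hc⟩
    have := hT.1.2.2
    rwa [hc] at this
  refine le_trans (sum_le_sum_of_subset_of_nonneg hsub
    (fun T _ _ => prod_nonneg (fun i _ => hx i))) ?_
  refine le_trans (esymm_le _ x hx 9 (by norm_num) (r+1)) ?_
  have hs := layer_sum_le I x w hx (1/9) (by norm_num) (r+1)
  have h1 : Real.exp (9 * ∑ i ∈ layer I x w (1/9) (r+1), x i) ≤ Real.exp 1 ^ (r+1) := by
    rw [← Real.exp_nat_mul]
    apply Real.exp_le_exp.mpr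
    push_cast at hs ⊢
    linarith
  have h2 : Real.exp 1 ≤ 3 := by
    have := Real.exp_one_lt_d9
    linarith
  calc (9:ℝ)⁻¹ ^ (r+1) * Real.exp (9 * ∑ i ∈ layer I x w (1/9) (r+1), x i)
      ≤ (9:ℝ)⁻¹ ^ (r+1) * 3 ^ (r+1) := by
        apply mul_le_mul_of_nonneg_left _ (by positivity)
        exact le_trans h1 (pow_le_pow_left₀ (Real.exp_pos 1).le h2 _)
    _ = (1/3) ^ (r+1) := by
        rw [← mul_pow]; norm_num

end Vale.Agent.P034
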