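import Vale.Agent.P034.Graph

/-!
# Weighted count of connected supersets in bounded degree graphs
-/

namespace Vale.Agent.P034

open Finset

variable {X : Type*} [Fintype X] [DecidableEq X] (Γ : SimpleGraph X) [DecidableRel Γ.Adj]

open Classical in
lemma rooted_sum_le (D : ℕ) (hD : ∀ v, Γ.degree v ≤ D) (y lam : ℝ) (hy : 0 ≤ y) (hlam : 1 ≤ lam)
    (hrec : y * lam ^ D + 1 ≤ lam) :
    ∀ (m : ℕ) (P Q : Finset X), (univ \ (P ∪ Q)).card ≤ m →
      ∑ R ∈ univ.filter (fun R => Rooted Γ P R ∧ Disjoint R Q), y ^ (R \ P).card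
        ≤ lam ^ (bdry Γ P Q).card := by
  have hlam0 : 0 ≤ lam := by linarith
  -- the case of empty boundary
  have hempty : ∀ P Q : Finset X, bdry Γ P Q = ∅ →
      ∑ R ∈ univ.filter (fun R => Rooted Γ P R ∧ Disjoint R Q), y ^ (R \ P).card
        ≤ lam ^ (bdry Γ P Q).card := by
    intro P Q hb
    have hsub : univ.filter (fun R => Rooted Γ P R ∧ Disjoint R Q) ⊆ {P} := by
      intro R hR
      rw [mem_filter] at hR
      rw [mem_singleton]
      by_contra hne
      obtain ⟨a, ha, b, hb', hab⟩ := hR.2.1.2 P (Subset.refl _) hR.2.1.1 (fun h => hne h.symm)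
      rw [mem_sdiff] at hb'
      have : b ∈ bdry Γ P Q := by
        unfold bdry
        rw [mem_sdiff, mem_biUnion, mem_union]
        refine ⟨⟨a, ha, by simpa using hab⟩, ?_⟩
        rintro (h | h)
        · exact hb'.2 h
        · exact (disjoint_left.mp hR.2.2 hb'.1) h
      rw [hb] at this
      simp at this
    refine le_trans (sum_le_sum_of_subset_of_nonneg hsub (fun R _ _ => pow_nonneg hy _)) ?_
    simp [hb]
  intro m
  induction m with
  | zero =>
    intro P Q hcard
    apply hempty
    rw [eq_empty_iff_forall_notMem]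
    intro u hu
    unfold bdry at hu
    rw [mem_sdiff] at hu
    have : u ∈ univ \ (P ∪ Q) := by simp only [mem_sdiff, mem_univ, true_and]; exact hu.2
    have h0 : univ \ (P ∪ Q) = ∅ := by simpa using hcard
    rw [h0] at this
    simp at this
  | succ m ih =>
    intro P Q hcard
    rcases (bdry Γ P Q).eq_empty_or_nonempty with hb | ⟨u, hu⟩
    · exact hempty P Q hb
    have hu' := hu
    unfold bdry at hu'
    rw [mem_sdiff, mem_union, not_or] at hu'
    obtain ⟨_, huP, huQ⟩ := hu'
    have humem : u ∈ univ \ (P ∪ Q) := by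
      simp only [mem_sdiff, mem_univ, true_and, mem_union, not_or]; exact ⟨huP, huQ⟩
    have hc1 : (univ \ (insert u P ∪ Q)).card ≤ m := by
      have : univ \ (insert u P ∪ Q) = (univ \ (P ∪ Q)).erase u := by
        ext v; simp only [mem_sdiff, mem_univ, true_and, mem_union, mem_insert, mem_erase]; tauto
      rw [this, card_erase_of_mem humem]; omega
    have hc2 : (univ \ (P ∪ insert u Q)).card ≤ m := by
      have : univ \ (P ∪ insert u Q) = (univ \ (P ∪ Q)).erase u := by
        ext v; simp only [mem_sdiff, mem_univ, true_and, mem_union, mem_insert, mem_erase]; tauto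
      rw [this, card_erase_of_mem humem]; omega
    have ih1 := ih (insert u P) Q hc1
    have ih2 := ih P (insert u Q) hc2
    set β := (bdry Γ P Q).card with hβ
    have hβ1 : 1 ≤ β := card_pos.mpr ⟨u, hu⟩
    have hb1 : (bdry Γ (insert u P) Q).card ≤ (β - 1) + D := by
      have hsub : bdry Γ (insert u P) Q ⊆ (bdry Γ P Q).erase u ∪ Γ.neighborFinset u := by
        intro v hv
        unfold bdry at hv ⊢
        simp only [mem_sdiff, mem_biUnion, mem_union, mem_insert, mem_erase, not_or] at hv ⊢
        obtain ⟨⟨a, ha, hav⟩, ⟨hvu, hvP⟩, hvQ⟩ := hv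
        rcases ha with rfl | ha
        · right; exact hav
        · left; exact ⟨hvu, ⟨a, ha, hav⟩, hvP, hvQ⟩
      refine le_trans (card_le_card hsub) (le_trans (card_union_le _ _) ?_)
      rw [card_erase_of_mem hu]
      have := hD u
      rw [← SimpleGraph.card_neighborFinset_eq_degree] at this
      omega
    have hb2 : (bdry Γ P (insert u Q)).card ≤ β - 1 := by
      have hsub : bdry Γ P (insert u Q) ⊆ (bdry Γ P Q).erase u := by
        intro v hv
        unfold bdry at hv ⊢
        simp only [mem_sdiff, mem_biUnion, mem_union, mem_insert, mem_erase, not_or] at hv ⊢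
        obtain ⟨⟨a, ha, hav⟩, hvP, hvu, hvQ⟩ := hv
        exact ⟨hvu, ⟨a, ha, hav⟩, hvP, hvQ⟩
      refine le_trans (card_le_card hsub) ?_
      rw [card_erase_of_mem hu]
    rw [← sum_filter_add_sum_filter_not _ (fun R => u ∈ R)]
    have part1 : ∑ R ∈ (univ.filter (fun R => Rooted Γ P R ∧ Disjoint R Q)).filter (fun R => u ∈ R),
        y ^ (R \ P).card ≤ y * lam ^ ((β - 1) + D) := by
      have e : ∀ R ∈ (univ.filter (fun R => Rooted Γ P R ∧ Disjoint R Q)).filter (fun R => u ∈ R),
          y ^ (R \ P).card = y * y ^ (R \ insert u P).card := by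
        intro R hR
        rw [mem_filter] at hR
        have : R \ P = insert u (R \ insert u P) := by
          ext v
          simp only [mem_sdiff, mem_insert, not_or]
          constructor
          · rintro ⟨h1, h2⟩
            by_cases hvu : v = u
            · left; exact hvu
            · right; exact ⟨h1, hvu, h2⟩
          · rintro (rfl | ⟨h1, _, h3⟩)
            · exact ⟨hR.2, huP⟩
            · exact ⟨h1, h3⟩
        rw [this, card_insert_of_notMem (by simp), pow_succ]
        ring
      rw [sum_congr rfl e, ← mul_sum]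
      apply mul_le_mul_of_nonneg_left _ hy
      refine le_trans ?_ (le_trans ih1 (pow_le_pow_right₀ hlam hb1))
      apply sum_le_sum_of_subset_of_nonneg
      · intro R hR
        rw [mem_filter, mem_filter] at hR
        rw [mem_filter]
        refine ⟨mem_univ _, ⟨?_, ?_⟩, hR.1.2.2⟩
        · intro v hv
          rcases mem_insert.mp hv with rfl | hv
          · exact hR.2
          · exact hR.1.2.1.1 hv
        · intro A hPA hAR hne
          exact hR.1.2.1.2 A (fun v hv => hPA (mem_insert_of_mem hv)) hAR hne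
      · intro R _ _
        exact pow_nonneg hy _
    have part2 : ∑ R ∈ (univ.filter (fun R => Rooted Γ P R ∧ Disjoint R Q)).filter
        (fun R => ¬ u ∈ R), y ^ (R \ P).card ≤ lam ^ (β - 1) := by
      refine le_trans ?_ (le_trans ih2 (pow_le_pow_right₀ hlam hb2))
      apply sum_le_sum_of_subset_of_nonneg
      · intro R hR
        rw [mem_filter, mem_filter] at hR
        rw [mem_filter]
        refine ⟨mem_univ _, hR.1.2.1, ?_⟩
        rw [disjoint_insert_right]
        exact ⟨hR.2, hR.1.2.2⟩
      · intro R _ _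
        exact pow_nonneg hy _
    calc _ ≤ y * lam ^ ((β - 1) + D) + lam ^ (β - 1) := add_le_add part1 part2
      _ = lam ^ (β - 1) * (y * lam ^ D + 1) := by rw [pow_add]; ring
      _ ≤ lam ^ (β - 1) * lam := mul_le_mul_of_nonneg_left hrec (pow_nonneg hlam0 _)
      _ = lam ^ β := by
          rw [← pow_succ]
          congr 1
          omega

open Classical in
/-- Weighted number of connected supersets of a nonempty set. -/
lemma conn_superset_sum_le (D : ℕ) (hD : ∀ v, Γ.degree v ≤ D) (y lam : ℝ) (hy : 0 ≤ y)
    (hlam : 1 ≤ lam) (hrec : y * lam ^ D + 1 ≤ lam) (S : Finset X) (hS : S.Nonempty) :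
    ∑ R ∈ univ.filter (fun R => CutConn Γ R ∧ S ⊆ R), y ^ R.card
      ≤ y ^ S.card * (lam ^ D) ^ S.card := by
  have h1 := rooted_sum_le Γ D hD y lam hy hlam hrec _ S ∅ le_rfl
  have hb : (bdry Γ S ∅).card ≤ D * S.card := by
    unfold bdry
    refine le_trans (card_le_card sdiff_subset) ?_
    refine le_trans card_biUnion_le ?_
    calc ∑ v ∈ S, (Γ.neighborFinset v).card ≤ ∑ _v ∈ S, D := by
          apply sum_le_sum
          intro v _
          rw [SimpleGraph.card_neighborFinset_eq_degree]
          exact hD v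
      _ = D * S.card := by rw [sum_const, smul_eq_mul, mul_comm]
  have h2 : ∑ R ∈ univ.filter (fun R => CutConn Γ R ∧ S ⊆ R), y ^ R.card
      ≤ y ^ S.card * ∑ R ∈ univ.filter (fun R => Rooted Γ S R ∧ Disjoint R ∅),
          y ^ (R \ S).card := by
    rw [mul_sum]
    have e : ∀ R ∈ univ.filter (fun R => CutConn Γ R ∧ S ⊆ R),
        y ^ R.card = y ^ S.card * y ^ (R \ S).card := by
      intro R hR
      rw [mem_filter] at hR
      rw [← pow_add, card_sdiff_of_subset hR.2.2]
      congr 1
      have := card_le_card hR.2.2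
      omega
    rw [sum_congr rfl e]
    apply sum_le_sum_of_subset_of_nonneg
    · intro R hR
      rw [mem_filter] at hR ⊢
      refine ⟨mem_univ _, ⟨hR.2.2, ?_⟩, disjoint_empty_right _⟩
      intro A hSA hAR hne
      exact hR.2.1.2 A hAR (hS.mono hSA) hne
    · intro R _ _
      exact mul_nonneg (pow_nonneg hy _) (pow_nonneg hy _)
  refine le_trans h2 ?_
  apply mul_le_mul_of_nonneg_left _ (pow_nonneg hy _)
  refine le_trans h1 ?_
  rw [← pow_mul]
  exact pow_le_pow_right₀ hlam hb

end Vale.Agent.P034
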