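import Vale.Agent.P034.Main

/-!
# Fractional covers whose support hypergraph has bounded degree
-/

namespace Vale.Agent.P034

open Finset

variable {X : Type*} [Fintype X] [DecidableEq X]

/-- `x` and `y` are consecutive elements of `S` in the order induced by `e`. -/
def Consec (e : X → ℕ) (S : Finset X) (x y : X) : Prop :=
  x ∈ S ∧ y ∈ S ∧ e x < e y ∧ ∀ z ∈ S, ¬ (e x < e z ∧ e z < e y)

/-- the graph joining consecutive elements of every support set. -/
def pathGraphOf (e : X → ℕ) (g : Finset X → ℝ) : SimpleGraph X :=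
  SimpleGraph.fromRel (fun x y => ∃ S, g S ≠ 0 ∧ Consec e S x y)

omit [Fintype X] [DecidableEq X] in
lemma consec_succ_unique (e : X → ℕ) (he : Function.Injective e) (S : Finset X) (x y y' : X)
    (h : Consec e S x y) (h' : Consec e S x y') : y = y' := by
  apply he
  by_contra hne
  rcases lt_or_gt_of_ne hne with hlt | hlt
  · exact h'.2.2.2 y h.2.1 ⟨h.2.2.1, hlt⟩
  · exact h.2.2.2 y' h'.2.1 ⟨h'.2.2.1, hlt⟩

omit [Fintype X] [DecidableEq X] in
lemma consec_pred_unique (e : X → ℕ) (he : Function.Injective e) (S : Finset X) (x x' y : X)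
    (h : Consec e S x y) (h' : Consec e S x' y) : x = x' := by
  apply he
  by_contra hne
  rcases lt_or_gt_of_ne hne with hlt | hlt
  · exact h.2.2.2 x' h'.1 ⟨hlt, h'.2.2.1⟩
  · exact h'.2.2.2 x h.1 ⟨hlt, h.2.2.1⟩

omit [Fintype X] [DecidableEq X] in
/-- between a `P`-element and a later non-`P`-element of `S` there is a crossing consecutive pair. -/
lemma exists_crossing (e : X → ℕ) (he : Function.Injective e) (S : Finset X) (P : X → Prop)
    (lo hi : X) (hlo : lo ∈ S) (hhi : hi ∈ S) (hlt : e lo < e hi) (hPlo : P lo) (hPhi : ¬ P hi) :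
    ∃ x y, Consec e S x y ∧ P x ∧ ¬ P y := by
  classical
  have hne1 : (S.filter (fun z => ¬ P z ∧ e lo < e z)).Nonempty :=
    ⟨hi, mem_filter.mpr ⟨hhi, hPhi, hlt⟩⟩
  obtain ⟨y, hy, hymin⟩ := exists_min_image _ e hne1
  rw [mem_filter] at hy
  have hne2 : (S.filter (fun z => e z < e y)).Nonempty :=
    ⟨lo, mem_filter.mpr ⟨hlo, hy.2.2⟩⟩
  obtain ⟨x, hx, hxmax⟩ := exists_max_image _ e hne2
  rw [mem_filter] at hx
  refine ⟨x, y, ⟨hx.1, hy.1, hx.2, ?_⟩, ?_, hy.2.1⟩
  · rintro z hz ⟨h1, h2⟩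
    have := hxmax z (mem_filter.mpr ⟨hz, h2⟩)
    omega
  · by_contra hPx
    have h1 : e lo ≤ e x := hxmax lo (mem_filter.mpr ⟨hlo, hy.2.2⟩)
    rcases h1.eq_or_lt with h1 | h1
    · exact hPx (he h1 ▸ hPlo)
    · have := hymin x (mem_filter.mpr ⟨hx.1, hPx, h1⟩)
      omega

omit [Fintype X] in
lemma cutConn_pathGraphOf (e : X → ℕ) (he : Function.Injective e) (g : Finset X → ℝ)
    (S : Finset X) (hS : g S ≠ 0) (hne : S.Nonempty) : CutConn (pathGraphOf e g) S := by
  refine ⟨hne, ?_⟩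
  intro A hA hAne hAneq
  obtain ⟨a, ha⟩ := hAne
  have : ∃ b ∈ S, b ∉ A := by
    by_contra hcon
    push Not at hcon
    exact hAneq (Subset.antisymm hA hcon)
  obtain ⟨b, hbS, hbA⟩ := this
  have hab : e a ≠ e b := fun h => hbA (he h ▸ ha)
  have hne' : ∀ x y, Consec e S x y → x ≠ y := by
    intro x y hxy h
    have := hxy.2.2.1
    rw [h] at this
    exact lt_irrefl _ this
  rcases lt_or_gt_of_ne hab with hlt | hlt
  · obtain ⟨x, y, hxy, hx, hy⟩ := exists_crossing e he S (fun z => z ∈ A) a b (hA ha) hbS hlt ha hbA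
    refine ⟨x, hx, y, mem_sdiff.mpr ⟨hxy.2.1, hy⟩, ?_⟩
    rw [pathGraphOf, SimpleGraph.fromRel_adj]
    exact ⟨hne' x y hxy, Or.inl ⟨S, hS, hxy⟩⟩
  · obtain ⟨x, y, hxy, hx, hy⟩ := exists_crossing e he S (fun z => z ∉ A) b a hbS (hA ha) hlt hbA
      (by simpa using ha)
    refine ⟨y, by simpa using hy, x, mem_sdiff.mpr ⟨hxy.1, hx⟩, ?_⟩
    rw [pathGraphOf, SimpleGraph.fromRel_adj]
    exact ⟨(hne' x y hxy).symm, Or.inr ⟨S, hS, hxy⟩⟩

open Classical in
lemma degree_pathGraphOf_le (e : X → ℕ) (he : Function.Injective e) (g : Finset X → ℝ) (d : ℕ)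
    (hd : ∀ x, (univ.filter (fun S : Finset X => g S ≠ 0 ∧ x ∈ S)).card ≤ d) (x : X) :
    (pathGraphOf e g).degree x ≤ 2 * d := by
  rw [← SimpleGraph.card_neighborFinset_eq_degree]
  have hsub : (pathGraphOf e g).neighborFinset x ⊆
      (univ.filter (fun S : Finset X => g S ≠ 0 ∧ x ∈ S)).biUnion
        (fun S => univ.filter (fun y => Consec e S x y) ∪ univ.filter (fun y => Consec e S y x)) := by
    intro y hy
    rw [SimpleGraph.mem_neighborFinset, pathGraphOf, SimpleGraph.fromRel_adj] at hy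
    rw [mem_biUnion]
    rcases hy.2 with ⟨S, hS, hc⟩ | ⟨S, hS, hc⟩
    · exact ⟨S, mem_filter.mpr ⟨mem_univ _, hS, hc.1⟩,
        mem_union_left _ (mem_filter.mpr ⟨mem_univ _, hc⟩)⟩
    · exact ⟨S, mem_filter.mpr ⟨mem_univ _, hS, hc.2.1⟩,
        mem_union_right _ (mem_filter.mpr ⟨mem_univ _, hc⟩)⟩
  refine le_trans (card_le_card hsub) ?_
  refine le_trans (card_biUnion_le_card_mul _ _ 2 ?_) ?_
  · intro S _
    refine le_trans (card_union_le _ _) ?_
    have h1 : (univ.filter (fun y => Consec e S x y)).card ≤ 1 := by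
      rw [card_le_one]
      intro y hy y' hy'
      exact consec_succ_unique e he S x y y' (mem_filter.mp hy).2 (mem_filter.mp hy').2
    have h2 : (univ.filter (fun y => Consec e S y x)).card ≤ 1 := by
      rw [card_le_one]
      intro y hy y' hy'
      exact consec_pred_unique e he S y y' x (mem_filter.mp hy).2 (mem_filter.mp hy').2
    omega
  · have := hd x
    omega

open Classical in
/-- Rounding for fractional covers whose support hypergraph has maximum degree at most `d`. -/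
theorem main_degree (d : ℕ)
    (F : Finset (Finset X)) (g : Finset X → ℝ) (p : ℝ) (hp0 : 0 ≤ p) (hp1 : p ≤ 1)
    (hg0 : ∀ S, 0 ≤ g S)
    (hd : ∀ x, (univ.filter (fun S : Finset X => g S ≠ 0 ∧ x ∈ S)).card ≤ d)
    (hcov : ∀ H ∈ F, 1 ≤ ∑ S ∈ H.powerset, g S)
    (hcost : ∑ S : Finset X, g S * p ^ S.card ≤ 1/2) :
    ∃ G : Finset (Finset X), (∀ H ∈ F, ∃ S ∈ G, S ⊆ H) ∧
      ∑ S ∈ G, (p / (28 + 6 * (d:ℝ) * p)) ^ S.card ≤ 1/2 := by
  set e : X → ℕ := fun x => (Fintype.equivFin X x).val with he_def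
  have he : Function.Injective e := by
    intro x y hxy
    exact (Fintype.equivFin X).injective (Fin.ext hxy)
  have hd0 : (0:ℝ) ≤ d := Nat.cast_nonneg _
  apply main_cutConn (pathGraphOf e g) (2 * d + 1) (by omega)
    (fun v => le_trans (degree_pathGraphOf_le e he g d hd v) (by omega)) F g p _ hp0 hp1
    _ _ hg0 _ hcov hcost
  · have : 0 ≤ 6 * (d:ℝ) * p := by positivity
    linarith
  · push_cast
    nlinarith
  · intro S hS
    rcases S.eq_empty_or_nonempty with h | h
    · left; exact h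
    · right; exact cutConn_pathGraphOf e he g S hS h

end Vale.Agent.P034
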