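import Vale.Agent.P034.Cells

/-!
# Connected sets in bounded degree graphs
-/

namespace Vale.Agent.P034

open Finset

variable {X : Type*} [Fintype X] [DecidableEq X] (Γ : SimpleGraph X) [DecidableRel Γ.Adj]

/-- Cut formulation of connectivity of a finite vertex set. -/
def CutConn (S : Finset X) : Prop :=
  S.Nonempty ∧ ∀ A ⊆ S, A.Nonempty → A ≠ S → ∃ a ∈ A, ∃ b ∈ S \ A, Γ.Adj a b

/-- every vertex of `R` can be reached from `P` inside `R` (cut formulation). -/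
def Rooted (P R : Finset X) : Prop :=
  P ⊆ R ∧ ∀ A, P ⊆ A → A ⊆ R → A ≠ R → ∃ a ∈ A, ∃ b ∈ R \ A, Γ.Adj a b

/-- undecided outer vertex boundary of `P`. -/
def bdry (P Q : Finset X) : Finset X := (P.biUnion (fun v => Γ.neighborFinset v)) \ (P ∪ Q)

omit [Fintype X] [DecidableRel Γ.Adj] in
lemma cutConn_union {S T : Finset X} (hS : CutConn Γ S) (hT : CutConn Γ T)
    (hST : (S ∩ T).Nonempty) : CutConn Γ (S ∪ T) := by
  refine ⟨hS.1.mono subset_union_left, ?_⟩
  intro A hA hAne hAneq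
  obtain ⟨z, hz⟩ := hST
  rw [mem_inter] at hz
  by_cases h1 : (A ∩ S).Nonempty ∧ A ∩ S ≠ S
  · obtain ⟨a, ha, b, hb, hab⟩ := hS.2 (A ∩ S) inter_subset_right h1.1 h1.2
    refine ⟨a, (mem_inter.mp ha).1, b, ?_, hab⟩
    rw [mem_sdiff] at hb ⊢
    refine ⟨mem_union_left _ hb.1, fun hbA => hb.2 (mem_inter.mpr ⟨hbA, hb.1⟩)⟩
  by_cases h2 : (A ∩ T).Nonempty ∧ A ∩ T ≠ T
  · obtain ⟨a, ha, b, hb, hab⟩ := hT.2 (A ∩ T) inter_subset_right h2.1 h2.2
    refine ⟨a, (mem_inter.mp ha).1, b, ?_, hab⟩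
    rw [mem_sdiff] at hb ⊢
    refine ⟨mem_union_right _ hb.1, fun hbA => hb.2 (mem_inter.mpr ⟨hbA, hb.1⟩)⟩
  exfalso
  have h1' : A ∩ S = ∅ ∨ A ∩ S = S := by
    by_contra hcon
    push Not at hcon
    exact h1 ⟨hcon.1, hcon.2⟩
  have h2' : A ∩ T = ∅ ∨ A ∩ T = T := by
    by_contra hcon
    push Not at hcon
    exact h2 ⟨hcon.1, hcon.2⟩
  rcases h1' with h1' | h1' <;> rcases h2' with h2' | h2'
  · obtain ⟨a, ha⟩ := hAne
    rcases mem_union.mp (hA ha) with h | h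
    · have : a ∈ A ∩ S := mem_inter.mpr ⟨ha, h⟩
      rw [h1'] at this; simp at this
    · have : a ∈ A ∩ T := mem_inter.mpr ⟨ha, h⟩
      rw [h2'] at this; simp at this
  · have hzA : z ∈ A := by
      have : z ∈ A ∩ T := by rw [h2']; exact hz.2
      exact (mem_inter.mp this).1
    have : z ∈ A ∩ S := mem_inter.mpr ⟨hzA, hz.1⟩
    rw [h1'] at this; simp at this
  · have hzA : z ∈ A := by
      have : z ∈ A ∩ S := by rw [h1']; exact hz.1
      exact (mem_inter.mp this).1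
    have : z ∈ A ∩ T := mem_inter.mpr ⟨hzA, hz.2⟩
    rw [h2'] at this; simp at this
  · apply hAneq
    apply Subset.antisymm hA
    intro a ha
    rcases mem_union.mp ha with h | h
    · have : a ∈ A ∩ S := by rw [h1']; exact h
      exact (mem_inter.mp this).1
    · have : a ∈ A ∩ T := by rw [h2']; exact h
      exact (mem_inter.mp this).1

omit [Fintype X] [DecidableRel Γ.Adj] in
/-- decomposition of `H` into maximal connected pieces. -/
lemma exists_components (H : Finset X) : ∃ J : Finset (Finset X),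
    (∀ R ∈ J, CutConn Γ R ∧ R ⊆ H) ∧ (J : Set (Finset X)).PairwiseDisjoint id ∧
    ∀ S, CutConn Γ S → S ⊆ H → ∃ R ∈ J, S ⊆ R := by
  classical
  set CH := H.powerset.filter (fun R => CutConn Γ R) with hCH
  have memCH : ∀ R, R ∈ CH ↔ R ⊆ H ∧ CutConn Γ R := by
    intro R; rw [hCH, mem_filter, mem_powerset]
  refine ⟨CH.filter (fun R => Maximal (· ∈ CH) R), ?_, ?_, ?_⟩
  · intro R hR
    rw [mem_filter, memCH] at hR
    exact ⟨hR.1.2, hR.1.1⟩
  · intro R1 h1 R2 h2 hne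
    rw [mem_coe, mem_filter] at h1 h2
    simp only [Function.onFun, id]
    rw [disjoint_iff_inter_eq_empty]
    by_contra hcon
    have hne' : (R1 ∩ R2).Nonempty := nonempty_iff_ne_empty.mpr hcon
    have hU : R1 ∪ R2 ∈ CH := by
      rw [memCH]
      exact ⟨union_subset ((memCH _).mp h1.1).1 ((memCH _).mp h2.1).1,
        cutConn_union Γ ((memCH _).mp h1.1).2 ((memCH _).mp h2.1).2 hne'⟩
    have e1 : R1 ∪ R2 ≤ R1 := h1.2.2 hU subset_union_left
    have e2 : R1 ∪ R2 ≤ R2 := h2.2.2 hU subset_union_right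
    apply hne
    apply Subset.antisymm
    · exact fun a ha => e2 (mem_union_left _ ha)
    · exact fun a ha => e1 (mem_union_right _ ha)
  · intro S hS hSH
    obtain ⟨R, hSR, hR⟩ := CH.exists_le_maximal ((memCH S).mpr ⟨hSH, hS⟩)
    exact ⟨R, mem_filter.mpr ⟨hR.1, hR⟩, hSR⟩

omit [Fintype X] [DecidableRel Γ.Adj] in
lemma cutConn_of_connected (S : Finset X) (h : (Γ.induce (S : Set X)).Connected) :
    CutConn Γ S := by
  obtain ⟨⟨s, hs⟩⟩ := h.nonempty
  refine ⟨⟨s, by simpa using hs⟩, ?_⟩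
  intro A hA hAne hAneq
  obtain ⟨a, ha⟩ := hAne
  have : ∃ b ∈ S, b ∉ A := by
    by_contra hcon
    push Not at hcon
    exact hAneq (Subset.antisymm hA hcon)
  obtain ⟨b, hbS, hbA⟩ := this
  obtain ⟨p⟩ := h.preconnected ⟨a, by simpa using hA ha⟩ ⟨b, by simpa using hbS⟩
  obtain ⟨d, _, hd1, hd2⟩ := p.exists_boundary_dart {v | v.1 ∈ A} ha hbA
  refine ⟨d.fst.1, hd1, d.snd.1, ?_, ?_⟩
  · rw [mem_sdiff]
    exact ⟨by simpa using d.snd.2, hd2⟩
  · exact d.adj

end Vale.Agent.P034
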