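import Vale.Agent.P034.Count

/-!
# Rounding fractional covers supported on connected sets of a bounded degree graph
-/

namespace Vale.Agent.P034

open Finset

variable {X : Type*} [Fintype X] [DecidableEq X] (Γ : SimpleGraph X) [DecidableRel Γ.Adj]

lemma lam_pow_le (D : ℕ) (hD1 : 1 ≤ D) : (1 + 1 / (D:ℝ)) ^ D ≤ 3 := by
  have hDpos : (0:ℝ) < D := by exact_mod_cast hD1
  have h1 : 1 + 1 / (D:ℝ) ≤ Real.exp (1 / (D:ℝ)) := by
    have := Real.add_one_le_exp (1 / (D:ℝ))
    linarith
  have h2 : (1 + 1 / (D:ℝ)) ^ D ≤ Real.exp (1 / (D:ℝ)) ^ D :=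
    pow_le_pow_left₀ (by positivity) h1 D
  have h3 : Real.exp (1 / (D:ℝ)) ^ D = Real.exp 1 := by
    rw [← Real.exp_nat_mul]
    congr 1
    field_simp
  have := Real.exp_one_lt_d9
  linarith

open Classical in
theorem main_cutConn (D : ℕ) (hD1 : 1 ≤ D) (hD : ∀ v, Γ.degree v ≤ D)
    (F : Finset (Finset X)) (g : Finset X → ℝ) (p K : ℝ) (hp0 : 0 ≤ p) (hp1 : p ≤ 1)
    (hK1 : 27 < K) (hK2 : 3 * (D:ℝ) * p ≤ K)
    (hg0 : ∀ S, 0 ≤ g S)
    (hsupp : ∀ S, g S ≠ 0 → S = ∅ ∨ CutConn Γ S)
    (hcov : ∀ H ∈ F, 1 ≤ ∑ S ∈ H.powerset, g S)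
    (hcost : ∑ S : Finset X, g S * p ^ S.card ≤ 1/2) :
    ∃ G : Finset (Finset X), (∀ H ∈ F, ∃ S ∈ G, S ⊆ H) ∧ ∑ S ∈ G, (p / K) ^ S.card ≤ 1/2 := by
  have hKpos : 0 < K := by linarith
  have hDpos : (0:ℝ) < D := by exact_mod_cast hD1
  set y := p / K with hy
  have hy0 : 0 ≤ y := div_nonneg hp0 hKpos.le
  set lam : ℝ := 1 + 1 / (D:ℝ) with hlam
  have hlam1 : 1 ≤ lam := by
    have : 0 ≤ 1 / (D:ℝ) := by positivity
    linarith
  have hlamD : lam ^ D ≤ 3 := lam_pow_le D hD1
  have hy3 : y * 3 ≤ 1 / (D:ℝ) := by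
    rw [hy, div_mul_eq_mul_div, div_le_div_iff₀ hKpos hDpos]
    linarith
  have hrec : y * lam ^ D + 1 ≤ lam := by
    have : y * lam ^ D ≤ y * 3 := mul_le_mul_of_nonneg_left hlamD hy0
    linarith
  set g' : Finset X → ℝ := fun S => if S = ∅ then 0 else g S with hg'
  have hg'0 : ∀ S, 0 ≤ g' S := by
    intro S; simp only [hg']; split_ifs
    · exact le_rfl
    · exact hg0 S
  set a := g ∅ with ha
  have ha0 : 0 ≤ a := hg0 ∅
  -- splitting off the empty set
  have split_univ : ∑ S : Finset X, g S * p ^ S.card = a + ∑ S : Finset X, g' S * p ^ S.card := by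
    rw [← add_sum_erase univ _ (mem_univ (∅ : Finset X)),
      ← add_sum_erase univ (fun S => g' S * p ^ S.card) (mem_univ (∅ : Finset X))]
    simp only [card_empty, pow_zero, mul_one, hg', if_true, zero_add]
    congr 1
    apply sum_congr rfl
    intro S hS
    rw [if_neg (ne_of_mem_erase hS)]
  have split_pow : ∀ H : Finset X, ∑ S ∈ H.powerset, g S = a + ∑ S ∈ H.powerset, g' S := by
    intro H
    rw [← add_sum_erase H.powerset _ (empty_mem_powerset H),
      ← add_sum_erase H.powerset g' (empty_mem_powerset H)]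
    simp only [hg', if_true, zero_add]
    congr 1
    apply sum_congr rfl
    intro S hS
    rw [if_neg (ne_of_mem_erase hS)]
  have hg'cost0 : 0 ≤ ∑ S : Finset X, g' S * p ^ S.card :=
    sum_nonneg (fun S _ => mul_nonneg (hg'0 S) (pow_nonneg hp0 _))
  have ha_half : a ≤ 1/2 := by linarith
  set W : Finset X → ℝ := fun R => ∑ S ∈ R.powerset, g' S with hW
  have hW0 : ∀ R, 0 ≤ W R := fun R => sum_nonneg (fun S _ => hg'0 S)
  set C : Finset (Finset X) := univ.filter (fun R => CutConn Γ R) with hC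
  -- the budget
  have hB : ∑ R ∈ C, W R * y ^ R.card ≤ (3 / K) * ∑ S : Finset X, g' S * p ^ S.card := by
    have e1 : ∑ R ∈ C, W R * y ^ R.card
        = ∑ S : Finset X, g' S * ∑ R ∈ univ.filter (fun R => CutConn Γ R ∧ S ⊆ R), y ^ R.card := by
      have : ∀ R ∈ C, W R * y ^ R.card
          = ∑ S : Finset X, if S ⊆ R then g' S * y ^ R.card else 0 := by
        intro R _
        rw [hW, sum_mul, ← sum_filter]
        apply sum_congr
        · ext S; simp
        · intro S _; rfl
      rw [sum_congr rfl this, sum_comm]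
      apply sum_congr rfl
      intro S _
      rw [← sum_filter, mul_sum, hC, filter_filter]
    rw [e1, mul_sum]
    apply sum_le_sum
    intro S _
    by_cases hS0 : g' S = 0
    · rw [hS0]; simp
    have hSne : S ≠ ∅ := by
      intro h; apply hS0; simp [hg', h]
    have hgS : g S ≠ 0 := by
      intro h; apply hS0; simp [hg', h]
    have hconn : CutConn Γ S := by
      rcases hsupp S hgS with h | h
      · exact absurd h hSne
      · exact h
    have h1 := conn_superset_sum_le Γ D hD y lam hy0 hlam1 hrec S hconn.1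
    have hcard : 1 ≤ S.card := card_pos.mpr hconn.1
    have h2 : y ^ S.card * (lam ^ D) ^ S.card ≤ (3 / K) * p ^ S.card := by
      have h3 : (lam ^ D) ^ S.card ≤ 3 ^ S.card :=
        pow_le_pow_left₀ (pow_nonneg (by linarith) _) hlamD _
      have h4 : y ^ S.card * 3 ^ S.card = (3 / K) ^ S.card * p ^ S.card := by
        rw [← mul_pow, ← mul_pow, hy]
        congr 1
        field_simp
      have h5 : (3 / K) ^ S.card ≤ 3 / K := by
        apply pow_le_of_le_one (by positivity)
        · rw [div_le_one hKpos]; linarith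
        · omega
      calc y ^ S.card * (lam ^ D) ^ S.card ≤ y ^ S.card * 3 ^ S.card :=
            mul_le_mul_of_nonneg_left h3 (pow_nonneg hy0 _)
        _ = (3 / K) ^ S.card * p ^ S.card := h4
        _ ≤ (3 / K) * p ^ S.card := mul_le_mul_of_nonneg_right h5 (pow_nonneg hp0 _)
    calc g' S * ∑ R ∈ univ.filter (fun R => CutConn Γ R ∧ S ⊆ R), y ^ R.card
        ≤ g' S * ((3 / K) * p ^ S.card) :=
          mul_le_mul_of_nonneg_left (le_trans h1 h2) (hg'0 S)
      _ = 3 / K * (g' S * p ^ S.card) := by ring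
  have hB2 : ∑ R ∈ C, W R * y ^ R.card < 1 / 18 := by
    have h1 : ∑ S : Finset X, g' S * p ^ S.card ≤ 1/2 := by linarith
    have h2 : 3 / K < 1 / 9 := by
      rw [div_lt_div_iff₀ hKpos (by norm_num)]
      linarith
    have h3 : 0 ≤ 3 / K := by positivity
    nlinarith
  apply cover_of_cells C W hW0 y hy0 F
  intro H hH
  obtain ⟨J, hJ1, hJ2, hJ3⟩ := exists_components Γ H
  refine ⟨J, ?_, fun R hR => (hJ1 R hR).2, hJ2, ?_⟩
  · intro R hR
    rw [hC, mem_filter]
    exact ⟨mem_univ _, (hJ1 R hR).1⟩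
  · have hsum : ∑ S ∈ H.powerset, g' S ≤ ∑ R ∈ J, W R := by
      have e1 : ∑ R ∈ J, W R = ∑ S : Finset X, ∑ R ∈ J, if S ⊆ R then g' S else 0 := by
        rw [sum_comm]
        apply sum_congr rfl
        intro R _
        rw [hW, ← sum_filter]
        apply sum_congr
        · ext S; simp
        · intro S _; rfl
      have e2 : ∑ S ∈ H.powerset, g' S = ∑ S : Finset X, if S ⊆ H then g' S else 0 := by
        rw [← sum_filter]
        apply sum_congr
        · ext S; simp
        · intro S _; rfl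
      rw [e1, e2]
      apply sum_le_sum
      intro S _
      have hnn : ∀ R ∈ J, 0 ≤ (if S ⊆ R then g' S else 0) := by
        intro R _; split_ifs
        · exact hg'0 S
        · exact le_rfl
      split_ifs with hSH
      · by_cases hS0 : g' S = 0
        · rw [hS0]; exact sum_nonneg (by simpa [hS0] using hnn)
        have hSne : S ≠ ∅ := by
          intro h; apply hS0; simp [hg', h]
        have hgS : g S ≠ 0 := by
          intro h; apply hS0; simp [hg', h]
        have hconn : CutConn Γ S := by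
          rcases hsupp S hgS with h | h
          · exact absurd h hSne
          · exact h
        obtain ⟨R0, hR0, hSR0⟩ := hJ3 S hconn hSH
        have := single_le_sum hnn hR0
        rwa [if_pos hSR0] at this
      · exact sum_nonneg hnn
    have h1 := hcov H hH
    rw [split_pow] at h1
    linarith

/-- Version with the library notion of connectivity and an explicit constant. -/
theorem main_connected (Δ : ℕ) (hΔ : ∀ v, Γ.degree v ≤ Δ)
    (F : Finset (Finset X)) (g : Finset X → ℝ) (p : ℝ) (hp0 : 0 ≤ p) (hp1 : p ≤ 1)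
    (hg0 : ∀ S, 0 ≤ g S)
    (hsupp : ∀ S, g S ≠ 0 → S = ∅ ∨ (Γ.induce (S : Set X)).Connected)
    (hcov : ∀ H ∈ F, 1 ≤ ∑ S ∈ H.powerset, g S)
    (hcost : ∑ S : Finset X, g S * p ^ S.card ≤ 1/2) :
    ∃ G : Finset (Finset X), (∀ H ∈ F, ∃ S ∈ G, S ⊆ H) ∧
      ∑ S ∈ G, (p / (28 + 3 * (Δ:ℝ) * p)) ^ S.card ≤ 1/2 := by
  have hΔ0 : (0:ℝ) ≤ Δ := Nat.cast_nonneg _
  apply main_cutConn Γ (Δ + 1) (by omega) (fun v => le_trans (hΔ v) (by omega)) F g p _ hp0 hp1
    _ _ hg0 _ hcov hcost
  · have : 0 ≤ 3 * (Δ:ℝ) * p := by positivity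
    linarith
  · push_cast
    linarith
  · intro S hS
    rcases hsupp S hS with h | h
    · left; exact h
    · right; exact cutConn_of_connected Γ S h

end Vale.Agent.P034
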